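import Vale.Agent.P114.Main

open MeasureTheory

namespace Vale.Agent.Results.P114.ResidueDigits

open Vale.Agent.P114

/-- Let `N ≥ 2`, let the integers `d a` be a complete residue system modulo `N`, let `s j` be
arbitrary real numbers, finitely many, with positive weights `q j` of sum one. For the family of
maps `x ↦ (x + d a + s j) / N` with the weights `q j / N` (exact overlaps allowed), every
self-similar measure has lower Hausdorff dimension one, and this is `min (1, h_RW / χ)`. -/
theorem result (N : ℕ) (hN : 2 ≤ N) (d : Fin N → ℤ) (hd : ∀ a b, (N : ℤ) ∣ d a - d b → a = b)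
    (K : Type) [Fintype K] (s q : K → ℝ) (hq : ∀ j, 0 < q j) (hq1 : ∑ j, q j = 1)
    (r t p : Fin N × K → ℝ) (hr : ∀ i, r i = 1 / N) (ht : ∀ i, t i = (d i.1 + s i.2) / N)
    (hp : ∀ i, p i = q i.2 / N) (μ : Measure ℝ) (hμ : IsSelfSimilar r t p μ) :
    lowerDim μ = 1 ∧ lowerDim μ = ENNReal.ofReal (min 1 (hRW r t p / chi r p)) := by
  have er : r = rr N K := funext hr
  have et : t = tt d s := funext ht
  have ep : p = ww N q := funext hp
  subst er et ep
  have hq' : ∀ j, 0 ≤ q j := fun j => (hq j).le
  have h1 := lowerDim_eq hN hd s q hq' hq1 hμ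
  have h2 := ratio_ge hN hd s q hq' hq1
  refine ⟨h1, ?_⟩
  rw [h1, min_eq_left h2, ENNReal.ofReal_one]

end Vale.Agent.Results.P114.ResidueDigits
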