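import Vale.Agent.P114.Gen

open MeasureTheory

namespace Vale.Agent.Results.P114.ResidueFamilies

open Vale.Agent.P114 Vale.Agent.P114.Gen

/-- Let `J` be a finite set; for `j` in `J` let `N j ≥ 2`, `ε j = 1` or `-1`, `s j` any real
number, `q j > 0` with `∑ j, q j = 1`, and let the `N j` integers `d j a` be a complete residue
system modulo `N j`. For the family of all maps `x ↦ (ε j * x + d j a + s j) / N j` with the
weights `q j / N j` (different contraction ratios, both signs, exact overlaps allowed), every
self-similar measure has lower Hausdorff dimension one, and this is `min (1, h_RW / χ)`. -/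
theorem result {J : Type} [Fintype J] (N : J → ℕ) (ε : J → ℤ) (d : ∀ j, Fin (N j) → ℤ)
    (s q : J → ℝ) (r t p : (Σ j, Fin (N j)) → ℝ) (h : IsFamily N ε d s q r t p)
    (μ : Measure ℝ) (hμ : IsSelfSimilar r t p μ) :
    lowerDim μ = 1 ∧ lowerDim μ = ENNReal.ofReal (min 1 (hRW r t p / chi r p)) := by
  refine ⟨lowerDim_eq h hμ, ?_⟩
  rw [lowerDim_eq h hμ, min_eq_left (ratio_ge h), ENNReal.ofReal_one]

end Vale.Agent.Results.P114.ResidueFamilies
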